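import Mathlib

/-!
P227: the logarithmic combination of two sets in a coordinate space and its behaviour under
Cartesian products.
-/

namespace Vale.Agent.Lib.P227

open MeasureTheory Pointwise

/-- The support function of a set `K` of the coordinate space `ι → ℝ`, evaluated at `u`:
the supremum of the Euclidean inner products `⟨x, u⟩`, `x ∈ K`. -/
noncomputable def supp {ι : Type*} [Fintype ι] (K : Set (ι → ℝ)) (u : ι → ℝ) : ℝ :=
  sSup ((fun x : ι → ℝ => x ⬝ᵥ u) '' K)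

/-- The logarithmic combination `(1 - lam) K +₀ lam L`: the Wulff body of
`h_K ^ (1 - lam) * h_L ^ lam`, i.e. the set of all `x` with
`⟨x, u⟩ ≤ h_K(u) ^ (1 - lam) * h_L(u) ^ lam` for all Euclidean unit vectors `u`. -/
noncomputable def logSum {ι : Type*} [Fintype ι] (lam : ℝ) (K L : Set (ι → ℝ)) :
    Set (ι → ℝ) :=
  {x | ∀ u : ι → ℝ, ∑ i, u i ^ 2 = 1 → x ⬝ᵥ u ≤ supp K u ^ (1 - lam) * supp L u ^ lam}

/-- The Cartesian product of `A ⊆ ℝ^ι` and `B ⊆ ℝ^κ`, as a subset of `ℝ^(ι ⊕ κ)`. -/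
def prodSet {ι κ : Type*} (A : Set (ι → ℝ)) (B : Set (κ → ℝ)) : Set (ι ⊕ κ → ℝ) :=
  {x | (fun i => x (Sum.inl i)) ∈ A ∧ (fun j => x (Sum.inr j)) ∈ B}

section
variable {ι κ : Type*} [Fintype ι] [Fintype κ]

theorem bddAbove_img {K : Set (ι → ℝ)} (hK : Bornology.IsBounded K) (u : ι → ℝ) :
    BddAbove ((fun x : ι → ℝ => x ⬝ᵥ u) '' K) := by
  have hc : IsCompact (closure K) := hK.isCompact_closure
  have hcont : Continuous (fun x : ι → ℝ => x ⬝ᵥ u) := by
    unfold dotProduct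
    fun_prop
  exact ((hc.image hcont).bddAbove).mono (Set.image_mono subset_closure)

theorem le_supp {K : Set (ι → ℝ)} (hK : Bornology.IsBounded K) (u : ι → ℝ) {x : ι → ℝ}
    (hx : x ∈ K) : x ⬝ᵥ u ≤ supp K u :=
  le_csSup (bddAbove_img hK u) ⟨x, hx, rfl⟩

theorem supp_le {K : Set (ι → ℝ)} (hne : K.Nonempty) (u : ι → ℝ) {c : ℝ}
    (h : ∀ x ∈ K, x ⬝ᵥ u ≤ c) : supp K u ≤ c := by
  refine csSup_le (hne.image _) ?_
  rintro _ ⟨x, hx, rfl⟩
  exact h x hx

theorem supp_nonneg {K : Set (ι → ℝ)} (hK : Bornology.IsBounded K) (h0 : (0 : ι → ℝ) ∈ K)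
    (u : ι → ℝ) : 0 ≤ supp K u := by
  have := le_supp hK u h0
  simpa using this

theorem supp_zero {K : Set (ι → ℝ)} (hne : K.Nonempty) : supp K 0 = 0 := by
  unfold supp
  have : (fun x : ι → ℝ => x ⬝ᵥ (0 : ι → ℝ)) = fun _ => (0 : ℝ) := by
    funext x
    simp
  rw [this, hne.image_const]
  exact csSup_singleton 0

theorem supp_smul (K : Set (ι → ℝ)) {r : ℝ} (hr : 0 ≤ r) (v : ι → ℝ) :
    supp K (r • v) = r * supp K v := by
  unfold supp
  have : (fun x : ι → ℝ => x ⬝ᵥ (r • v)) '' K = r • ((fun x : ι → ℝ => x ⬝ᵥ v) '' K) := by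
    ext y
    simp only [Set.mem_image, Set.mem_smul_set]
    constructor
    · rintro ⟨x, hx, rfl⟩
      exact ⟨x ⬝ᵥ v, ⟨x, hx, rfl⟩, by simp [dotProduct_smul]⟩
    · rintro ⟨_, ⟨x, hx, rfl⟩, rfl⟩
      exact ⟨x, hx, by simp [dotProduct_smul]⟩
  rw [this, Real.sSup_smul_of_nonneg hr]
  rfl

theorem dot_sum (x u : ι ⊕ κ → ℝ) :
    x ⬝ᵥ u = (fun i => x (Sum.inl i)) ⬝ᵥ (fun i => u (Sum.inl i)) +
      (fun j => x (Sum.inr j)) ⬝ᵥ (fun j => u (Sum.inr j)) := by
  simp [dotProduct, Fintype.sum_sum_type]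

theorem supp_prod {K₁ : Set (ι → ℝ)} {K₂ : Set (κ → ℝ)} (h₁ : Bornology.IsBounded K₁)
    (h₂ : Bornology.IsBounded K₂) (n₁ : K₁.Nonempty) (n₂ : K₂.Nonempty) (u : ι ⊕ κ → ℝ) :
    supp (prodSet K₁ K₂) u =
      supp K₁ (fun i => u (Sum.inl i)) + supp K₂ (fun j => u (Sum.inr j)) := by
  have hub : ∀ x ∈ prodSet K₁ K₂, x ⬝ᵥ u ≤
      supp K₁ (fun i => u (Sum.inl i)) + supp K₂ (fun j => u (Sum.inr j)) := by
    intro x hx
    rw [dot_sum]
    exact add_le_add (le_supp h₁ _ hx.1) (le_supp h₂ _ hx.2)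
  have hne : (prodSet K₁ K₂).Nonempty := by
    obtain ⟨a, ha⟩ := n₁
    obtain ⟨b, hb⟩ := n₂
    exact ⟨Sum.elim a b, by simpa [prodSet] using ⟨ha, hb⟩⟩
  have hbdd : BddAbove ((fun x : ι ⊕ κ → ℝ => x ⬝ᵥ u) '' prodSet K₁ K₂) := by
    refine ⟨supp K₁ (fun i => u (Sum.inl i)) + supp K₂ (fun j => u (Sum.inr j)), ?_⟩
    rintro _ ⟨x, hx, rfl⟩
    exact hub x hx
  apply le_antisymm
  · exact supp_le hne u hub
  · have key : ∀ a ∈ K₁, ∀ b ∈ K₂,
        a ⬝ᵥ (fun i => u (Sum.inl i)) + b ⬝ᵥ (fun j => u (Sum.inr j)) ≤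
          supp (prodSet K₁ K₂) u := by
      intro a ha b hb
      have hmem : Sum.elim a b ∈ prodSet K₁ K₂ := by simpa [prodSet] using ⟨ha, hb⟩
      have h : (Sum.elim a b : ι ⊕ κ → ℝ) ⬝ᵥ u ≤ supp (prodSet K₁ K₂) u :=
        le_csSup hbdd ⟨Sum.elim a b, hmem, rfl⟩
      rw [dot_sum] at h
      simpa using h
    have s1 : ∀ b ∈ K₂, supp K₁ (fun i => u (Sum.inl i)) ≤
        supp (prodSet K₁ K₂) u - b ⬝ᵥ (fun j => u (Sum.inr j)) := by
      intro b hb
      refine supp_le n₁ _ ?_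
      intro a ha
      linarith [key a ha b hb]
    have s2 : supp K₂ (fun j => u (Sum.inr j)) ≤
        supp (prodSet K₁ K₂) u - supp K₁ (fun i => u (Sum.inl i)) := by
      refine supp_le n₂ _ ?_
      intro b hb
      linarith [s1 b hb]
    linarith

/-- Superadditivity of the weighted geometric mean. -/
theorem gm_superadd {lam a b c d : ℝ} (h0 : 0 ≤ lam) (h1 : lam ≤ 1) (ha : 0 ≤ a) (hb : 0 ≤ b)
    (hc : 0 ≤ c) (hd : 0 ≤ d) :
    a ^ (1 - lam) * c ^ lam + b ^ (1 - lam) * d ^ lam ≤ (a + b) ^ (1 - lam) * (c + d) ^ lam := by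
  have hl : 0 ≤ 1 - lam := by linarith
  rcases eq_or_lt_of_le (add_nonneg ha hb) with hA | hA
  · have ha0 : a = 0 := by linarith
    have hb0 : b = 0 := by linarith
    subst ha0
    subst hb0
    rcases eq_or_lt_of_le h1 with hl1 | hl1
    · subst hl1
      simp
    · have : (1 - lam) ≠ 0 := by linarith
      simp [Real.zero_rpow this]
  rcases eq_or_lt_of_le (add_nonneg hc hd) with hC | hC
  · have hc0 : c = 0 := by linarith
    have hd0 : d = 0 := by linarith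
    subst hc0
    subst hd0
    rcases eq_or_lt_of_le h0 with hl0 | hl0
    · subst hl0
      simp
    · have : lam ≠ 0 := by linarith
      simp [Real.zero_rpow this]
  set A := a + b with hAdef
  set C := c + d with hCdef
  have e1 : ∀ p q : ℝ, 0 ≤ p → 0 ≤ q →
      p ^ (1 - lam) * q ^ lam ≤ A ^ (1 - lam) * C ^ lam * ((1 - lam) * (p / A) + lam * (q / C)) := by
    intro p q hp hq
    have hw := Real.geom_mean_le_arith_mean2_weighted hl h0 (div_nonneg hp hA.le)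
      (div_nonneg hq hC.le) (by ring)
    have hpos : 0 ≤ A ^ (1 - lam) * C ^ lam :=
      mul_nonneg (Real.rpow_nonneg hA.le _) (Real.rpow_nonneg hC.le _)
    have := mul_le_mul_of_nonneg_left hw hpos
    refine le_trans (le_of_eq ?_) this
    rw [Real.div_rpow hp hA.le, Real.div_rpow hq hC.le]
    have hA' : A ^ (1 - lam) ≠ 0 := (Real.rpow_pos_of_pos hA _).ne'
    have hC' : C ^ lam ≠ 0 := (Real.rpow_pos_of_pos hC _).ne'
    field_simp
  have := add_le_add (e1 a c ha hc) (e1 b d hb hd)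
  refine le_trans this (le_of_eq ?_)
  have hAne : A ≠ 0 := hA.ne'
  have hCne : C ≠ 0 := hC.ne'
  have h2 : (1 - lam) * (a / A) + lam * (c / C) + ((1 - lam) * (b / A) + lam * (d / C)) = 1 := by
    have : a / A + b / A = 1 := by rw [← add_div]; exact div_self hAne
    have : c / C + d / C = 1 := by rw [← add_div]; exact div_self hCne
    nlinarith
  rw [← mul_add, h2, mul_one]

/-- The defining inequality of the logarithmic combination extends from unit vectors to all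
vectors, by homogeneity. -/
theorem logSum_all {lam : ℝ} {K L : Set (ι → ℝ)}
    (hK : Bornology.IsBounded K) (hL : Bornology.IsBounded L) (zK : (0 : ι → ℝ) ∈ K)
    (zL : (0 : ι → ℝ) ∈ L) {x : ι → ℝ} (hx : x ∈ logSum lam K L) (u : ι → ℝ) :
    x ⬝ᵥ u ≤ supp K u ^ (1 - lam) * supp L u ^ lam := by
  by_cases hu : u = 0
  · subst hu
    simp only [dotProduct_zero]
    exact mul_nonneg (Real.rpow_nonneg (supp_nonneg hK zK _) _)
      (Real.rpow_nonneg (supp_nonneg hL zL _) _)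
  · have hs : 0 < ∑ i, u i ^ 2 := by
      have hnn : ∀ i ∈ (Finset.univ : Finset ι), 0 ≤ u i ^ 2 := fun i _ => sq_nonneg _
      rcases eq_or_lt_of_le (Finset.sum_nonneg hnn) with h | h
      · exfalso
        apply hu
        funext i
        have := (Finset.sum_eq_zero_iff_of_nonneg hnn).1 h.symm i (Finset.mem_univ i)
        simpa using this
      · exact h
    set r := Real.sqrt (∑ i, u i ^ 2) with hr
    have hrpos : 0 < r := Real.sqrt_pos.2 hs
    have hr2 : r ^ 2 = ∑ i, u i ^ 2 := Real.sq_sqrt hs.le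
    set v : ι → ℝ := r⁻¹ • u with hv
    have huv : u = r • v := by
      rw [hv, smul_smul, mul_inv_cancel₀ hrpos.ne', one_smul]
    have hvunit : ∑ i, v i ^ 2 = 1 := by
      have : ∀ i, v i ^ 2 = (r ^ 2)⁻¹ * u i ^ 2 := by
        intro i
        simp only [hv, Pi.smul_apply, smul_eq_mul]
        ring
      simp_rw [this]
      rw [← Finset.mul_sum, ← hr2]
      exact inv_mul_cancel₀ (pow_pos hrpos 2).ne'
    have hxv := hx v hvunit
    have hKv := supp_nonneg hK zK v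
    have hLv := supp_nonneg hL zL v
    rw [huv, supp_smul K hrpos.le, supp_smul L hrpos.le, dotProduct_smul,
      Real.mul_rpow hrpos.le hKv, Real.mul_rpow hrpos.le hLv]
    have hrr : r ^ (1 - lam) * r ^ lam = r := by
      rw [← Real.rpow_add hrpos]
      simp
    calc r • (x ⬝ᵥ v) = r * (x ⬝ᵥ v) := rfl
      _ ≤ r * (supp K v ^ (1 - lam) * supp L v ^ lam) :=
        mul_le_mul_of_nonneg_left hxv hrpos.le
      _ = r ^ (1 - lam) * r ^ lam * (supp K v ^ (1 - lam) * supp L v ^ lam) := by rw [hrr]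
      _ = r ^ (1 - lam) * supp K v ^ (1 - lam) * (r ^ lam * supp L v ^ lam) := by ring

/-- The logarithmic combination commutes with Cartesian products. -/
theorem logSum_prod {lam : ℝ} (h0 : 0 ≤ lam) (h1 : lam ≤ 1)
    {K₁ L₁ : Set (ι → ℝ)} {K₂ L₂ : Set (κ → ℝ)}
    (hK₁ : Bornology.IsBounded K₁) (hL₁ : Bornology.IsBounded L₁)
    (hK₂ : Bornology.IsBounded K₂) (hL₂ : Bornology.IsBounded L₂)
    (zK₁ : (0 : ι → ℝ) ∈ K₁) (zL₁ : (0 : ι → ℝ) ∈ L₁)
    (zK₂ : (0 : κ → ℝ) ∈ K₂) (zL₂ : (0 : κ → ℝ) ∈ L₂) :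
    logSum lam (prodSet K₁ K₂) (prodSet L₁ L₂) =
      prodSet (logSum lam K₁ L₁) (logSum lam K₂ L₂) := by
  have nK₁ : K₁.Nonempty := ⟨0, zK₁⟩
  have nL₁ : L₁.Nonempty := ⟨0, zL₁⟩
  have nK₂ : K₂.Nonempty := ⟨0, zK₂⟩
  have nL₂ : L₂.Nonempty := ⟨0, zL₂⟩
  ext x
  constructor
  · intro hx
    refine ⟨?_, ?_⟩
    · intro u₁ hu₁
      have hu : ∑ i, (Sum.elim u₁ (0 : κ → ℝ)) i ^ 2 = 1 := by
        simp [Fintype.sum_sum_type, hu₁]
      have := hx (Sum.elim u₁ 0) hu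
      rw [supp_prod hK₁ hK₂ nK₁ nK₂, supp_prod hL₁ hL₂ nL₁ nL₂, dot_sum] at this
      have e0 : (fun j : κ => Sum.elim u₁ (0 : κ → ℝ) (Sum.inr j)) = 0 := by
        funext j; simp
      have e1 : (fun i : ι => Sum.elim u₁ (0 : κ → ℝ) (Sum.inl i)) = u₁ := by
        funext i; simp
      rw [e0, e1, supp_zero nK₂, supp_zero nL₂] at this
      simpa using this
    · intro u₂ hu₂
      have hu : ∑ i, (Sum.elim (0 : ι → ℝ) u₂) i ^ 2 = 1 := by
        simp [Fintype.sum_sum_type, hu₂]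
      have := hx (Sum.elim 0 u₂) hu
      rw [supp_prod hK₁ hK₂ nK₁ nK₂, supp_prod hL₁ hL₂ nL₁ nL₂, dot_sum] at this
      have e0 : (fun i : ι => Sum.elim (0 : ι → ℝ) u₂ (Sum.inl i)) = 0 := by
        funext j; simp
      have e1 : (fun j : κ => Sum.elim (0 : ι → ℝ) u₂ (Sum.inr j)) = u₂ := by
        funext i; simp
      rw [e0, e1, supp_zero nK₁, supp_zero nL₁] at this
      simpa using this
  · rintro ⟨hx₁, hx₂⟩ u _
    rw [supp_prod hK₁ hK₂ nK₁ nK₂, supp_prod hL₁ hL₂ nL₁ nL₂, dot_sum]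
    have a1 := logSum_all hK₁ hL₁ zK₁ zL₁ hx₁ (fun i => u (Sum.inl i))
    have a2 := logSum_all hK₂ hL₂ zK₂ zL₂ hx₂ (fun j => u (Sum.inr j))
    exact le_trans (add_le_add a1 a2)
      (gm_superadd h0 h1 (supp_nonneg hK₁ zK₁ _) (supp_nonneg hK₂ zK₂ _)
        (supp_nonneg hL₁ zL₁ _) (supp_nonneg hL₂ zL₂ _))

/-- Lebesgue measure of a Cartesian product. -/
theorem volume_prodSet (A : Set (ι → ℝ)) (B : Set (κ → ℝ)) :
    volume (prodSet A B) = volume A * volume B := by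
  have hmp := volume_measurePreserving_sumPiEquivProdPi (fun _ : ι ⊕ κ => ℝ)
  have hpre : prodSet A B =
      (MeasurableEquiv.sumPiEquivProdPi (fun _ : ι ⊕ κ => ℝ)) ⁻¹' (A ×ˢ B) := by
    ext x
    rfl
  rw [hpre, hmp.measure_preimage_equiv, Measure.volume_eq_prod, Measure.prod_prod]

end

end Vale.Agent.Lib.P227
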