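import Mathlib
import Vale.Agent.Lib.P227.LogSum

/-!
P227 support file: the logarithmic combination of a set and one of its dilates, and the
logarithmic Brunn-Minkowski inequality for pairs with dilated direct summands.
-/

namespace Vale.Agent.Lib.P227

open MeasureTheory Pointwise

section
variable {ι κ : Type*} [Fintype ι] [Fintype κ]

/-- The support function of a dilate. -/
theorem supp_dilate (K : Set (ι → ℝ)) {s : ℝ} (hs : 0 ≤ s) (u : ι → ℝ) :
    supp (s • K) u = s * supp K u := by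
  unfold supp
  have : (fun x : ι → ℝ => x ⬝ᵥ u) '' (s • K) = s • ((fun x : ι → ℝ => x ⬝ᵥ u) '' K) := by
    ext y
    simp only [Set.mem_image, Set.mem_smul_set]
    constructor
    · rintro ⟨_, ⟨x, hx, rfl⟩, rfl⟩
      exact ⟨x ⬝ᵥ u, ⟨x, hx, rfl⟩, by simp [smul_dotProduct]⟩
    · rintro ⟨_, ⟨x, hx, rfl⟩, rfl⟩
      exact ⟨s • x, ⟨x, hx, rfl⟩, by simp [smul_dotProduct]⟩
  rw [this, Real.sSup_smul_of_nonneg hs]
  rfl

/-- The logarithmic combination of `K` and `s K` contains `s ^ lam K`. -/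
theorem dilate_subset_logSum {lam : ℝ} {K : Set (ι → ℝ)}
    (hK : Bornology.IsBounded K) (zK : (0 : ι → ℝ) ∈ K) {s : ℝ} (hs : 0 < s) :
    (s ^ lam) • K ⊆ logSum lam K (s • K) := by
  rintro _ ⟨x, hx, rfl⟩ u _
  have hh : 0 ≤ supp K u := supp_nonneg hK zK u
  have hle : x ⬝ᵥ u ≤ supp K u := le_supp hK u hx
  have hpow : supp K u ^ (1 - lam) * supp K u ^ lam = supp K u := by
    rw [← Real.rpow_add' hh (by norm_num : (1 - lam) + lam ≠ 0)]
    simp
  have hsl : 0 ≤ s ^ lam := Real.rpow_nonneg hs.le lam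
  rw [supp_dilate K hs.le, smul_dotProduct, smul_eq_mul, Real.mul_rpow hs.le hh]
  calc s ^ lam * (x ⬝ᵥ u) ≤ s ^ lam * supp K u := mul_le_mul_of_nonneg_left hle hsl
    _ = supp K u ^ (1 - lam) * (s ^ lam * supp K u ^ lam) := by rw [mul_left_comm, hpow]

/-- The logarithmic Brunn-Minkowski inequality for a set and one of its dilates. -/
theorem logBM_dilate {lam : ℝ} (h0 : 0 ≤ lam) (h1 : lam ≤ 1) {K : Set (ι → ℝ)}
    (hK : Bornology.IsBounded K) (zK : (0 : ι → ℝ) ∈ K) {s : ℝ} (hs : 0 < s) :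
    volume K ^ (1 - lam) * volume (s • K) ^ lam ≤ volume (logSum lam K (s • K)) := by
  refine le_trans (le_of_eq ?_) (measure_mono (dilate_subset_logSum hK zK hs))
  rw [Measure.addHaar_smul, Measure.addHaar_smul]
  generalize Module.finrank ℝ (ι → ℝ) = N
  rw [ENNReal.mul_rpow_of_nonneg _ _ h0]
  have hsl : 0 < s ^ lam := Real.rpow_pos_of_pos hs lam
  have e1 : ENNReal.ofReal |s ^ N| ^ lam = ENNReal.ofReal |(s ^ lam) ^ N| := by
    rw [abs_of_nonneg (pow_nonneg hs.le N), abs_of_nonneg (pow_nonneg hsl.le N),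
      ENNReal.ofReal_rpow_of_nonneg (pow_nonneg hs.le N) h0]
    congr 1
    rw [← Real.rpow_natCast, ← Real.rpow_mul hs.le, ← Real.rpow_natCast, ← Real.rpow_mul hs.le,
      mul_comm]
  have e2 : volume K ^ (1 - lam) * volume K ^ lam = volume K := by
    rw [← ENNReal.rpow_add_of_nonneg _ _ (by linarith) h0]
    simp
  rw [e1, mul_left_comm, e2]

/-- The logarithmic Brunn-Minkowski inequality passes to Cartesian products of pairs. -/
theorem logBM_prod {lam : ℝ} (h0 : 0 ≤ lam) (h1 : lam ≤ 1)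
    {K₁ L₁ : Set (ι → ℝ)} {K₂ L₂ : Set (κ → ℝ)}
    (hK₁ : Bornology.IsBounded K₁) (hL₁ : Bornology.IsBounded L₁)
    (hK₂ : Bornology.IsBounded K₂) (hL₂ : Bornology.IsBounded L₂)
    (zK₁ : (0 : ι → ℝ) ∈ K₁) (zL₁ : (0 : ι → ℝ) ∈ L₁)
    (zK₂ : (0 : κ → ℝ) ∈ K₂) (zL₂ : (0 : κ → ℝ) ∈ L₂)
    (hA : volume K₁ ^ (1 - lam) * volume L₁ ^ lam ≤ volume (logSum lam K₁ L₁))
    (hB : volume K₂ ^ (1 - lam) * volume L₂ ^ lam ≤ volume (logSum lam K₂ L₂)) :
    volume (prodSet K₁ K₂) ^ (1 - lam) * volume (prodSet L₁ L₂) ^ lam ≤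
      volume (logSum lam (prodSet K₁ K₂) (prodSet L₁ L₂)) := by
  rw [logSum_prod h0 h1 hK₁ hL₁ hK₂ hL₂ zK₁ zL₁ zK₂ zL₂, volume_prodSet, volume_prodSet,
    volume_prodSet, ENNReal.mul_rpow_of_nonneg _ _ (by linarith : (0 : ℝ) ≤ 1 - lam),
    ENNReal.mul_rpow_of_nonneg _ _ h0]
  calc volume K₁ ^ (1 - lam) * volume K₂ ^ (1 - lam) * (volume L₁ ^ lam * volume L₂ ^ lam)
      = volume K₁ ^ (1 - lam) * volume L₁ ^ lam * (volume K₂ ^ (1 - lam) * volume L₂ ^ lam) := by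
        ring
    _ ≤ volume (logSum lam K₁ L₁) * volume (logSum lam K₂ L₂) := mul_le_mul' hA hB

end

end Vale.Agent.Lib.P227
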