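import Mathlib
import Vale.Agent.Lib.P227.LogSum
import Vale.Agent.Lib.P227.Dilates

/-!
P227 support file: for closed convex sets the logarithmic combination of `K` and `s K` is
exactly `s ^ lam K`, and the resulting equality case for pairs with dilated direct summands.
-/

namespace Vale.Agent.Lib.P227

open MeasureTheory Pointwise

section
variable {ι κ : Type*} [Fintype ι] [Fintype κ]

/-- A point outside a closed convex set containing the origin is cut off by a unit vector. -/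
theorem exists_unit_sep {K : Set (ι → ℝ)} (hc : Convex ℝ K) (hcl : IsClosed K)
    (zK : (0 : ι → ℝ) ∈ K) {z : ι → ℝ} (hz : z ∉ K) :
    ∃ u : ι → ℝ, ∑ i, u i ^ 2 = 1 ∧ supp K u < z ⬝ᵥ u := by
  classical
  obtain ⟨f, c, hf, hc'⟩ := geometric_hahn_banach_closed_point hc hcl hz
  have hrep : ∀ y : ι → ℝ, f y = y ⬝ᵥ (fun i => f (fun j => if i = j then 1 else 0)) := by
    intro y
    have := LinearMap.pi_apply_eq_sum_univ (f : (ι → ℝ) →ₗ[ℝ] ℝ) y
    simp only [ContinuousLinearMap.coe_coe, smul_eq_mul] at this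
    rw [this]
    rfl
  generalize (fun i => f (fun j => if i = j then 1 else 0)) = w at hrep
  have hc0 : 0 < c := by
    have := hf 0 zK
    simpa using this
  have hsupp : supp K w ≤ c := supp_le ⟨0, zK⟩ w (fun x hx => by
    rw [← hrep]
    exact (hf x hx).le)
  have hzw : c < z ⬝ᵥ w := by
    rw [← hrep]
    exact hc'
  have hw0 : 0 < ∑ i, w i ^ 2 := by
    by_contra hneg
    have hle : ∑ i, w i ^ 2 ≤ 0 := not_lt.mp hneg
    have hzero : ∑ i, w i ^ 2 = 0 :=
      le_antisymm hle (Finset.sum_nonneg (fun i _ => sq_nonneg (w i)))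
    have hall : ∀ i, w i = 0 := by
      intro i
      have := (Finset.sum_eq_zero_iff_of_nonneg (fun i _ => sq_nonneg (w i))).mp hzero i
        (Finset.mem_univ i)
      exact pow_eq_zero_iff (two_ne_zero) |>.mp this
    have : z ⬝ᵥ w = 0 := by
      simp [dotProduct, hall]
    linarith
  have hrpos : 0 < (Real.sqrt (∑ i, w i ^ 2))⁻¹ := inv_pos.mpr (Real.sqrt_pos.mpr hw0)
  refine ⟨(Real.sqrt (∑ i, w i ^ 2))⁻¹ • w, ?_, ?_⟩
  · simp only [Pi.smul_apply, smul_eq_mul, mul_pow]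
    rw [← Finset.mul_sum, inv_pow, Real.sq_sqrt hw0.le, inv_mul_cancel₀ hw0.ne']
  · rw [supp_smul K hrpos.le, dotProduct_smul, smul_eq_mul]
    exact mul_lt_mul_of_pos_left (lt_of_le_of_lt hsupp hzw) hrpos

/-- For a closed convex bounded set containing the origin, the logarithmic combination of `K`
and `s K` is exactly `s ^ lam K`. -/
theorem logSum_dilate_eq {lam : ℝ} {K : Set (ι → ℝ)} (hc : Convex ℝ K) (hcl : IsClosed K)
    (hK : Bornology.IsBounded K) (zK : (0 : ι → ℝ) ∈ K) {s : ℝ} (hs : 0 < s) :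
    logSum lam K (s • K) = (s ^ lam) • K := by
  refine Set.Subset.antisymm ?_ (dilate_subset_logSum hK zK hs)
  intro y hy
  have hsl : 0 < s ^ lam := Real.rpow_pos_of_pos hs lam
  by_contra hny
  have hz : (s ^ lam)⁻¹ • y ∉ K := by
    intro h
    apply hny
    refine ⟨(s ^ lam)⁻¹ • y, h, ?_⟩
    show s ^ lam • ((s ^ lam)⁻¹ • y) = y
    rw [smul_smul, mul_inv_cancel₀ hsl.ne', one_smul]
  obtain ⟨u, hu, hlt⟩ := exists_unit_sep hc hcl zK hz
  have hyu := hy u hu
  have hh : 0 ≤ supp K u := supp_nonneg hK zK u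
  have hpow : supp K u ^ (1 - lam) * supp K u ^ lam = supp K u := by
    rw [← Real.rpow_add' hh (by norm_num : (1 - lam) + lam ≠ 0)]
    simp
  rw [supp_dilate K hs.le, Real.mul_rpow hs.le hh, mul_left_comm, hpow] at hyu
  rw [smul_dotProduct, smul_eq_mul] at hlt
  have h3 : s ^ lam * supp K u < y ⬝ᵥ u := by
    have := mul_lt_mul_of_pos_left hlt hsl
    rwa [← mul_assoc, mul_inv_cancel₀ hsl.ne', one_mul] at this
  linarith

/-- The volume of the dilate `s ^ lam K` is the geometric mean of the volumes of `K`, `s K`. -/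
theorem volume_pow_dilate {lam : ℝ} (h0 : 0 ≤ lam) (h1 : lam ≤ 1) (K : Set (ι → ℝ)) {s : ℝ}
    (hs : 0 < s) :
    volume K ^ (1 - lam) * volume (s • K) ^ lam = volume ((s ^ lam) • K) := by
  rw [Measure.addHaar_smul, Measure.addHaar_smul]
  generalize Module.finrank ℝ (ι → ℝ) = N
  rw [ENNReal.mul_rpow_of_nonneg _ _ h0]
  have hsl : 0 < s ^ lam := Real.rpow_pos_of_pos hs lam
  have e1 : ENNReal.ofReal |s ^ N| ^ lam = ENNReal.ofReal |(s ^ lam) ^ N| := by
    rw [abs_of_nonneg (pow_nonneg hs.le N), abs_of_nonneg (pow_nonneg hsl.le N),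
      ENNReal.ofReal_rpow_of_nonneg (pow_nonneg hs.le N) h0]
    congr 1
    rw [← Real.rpow_natCast, ← Real.rpow_mul hs.le, ← Real.rpow_natCast, ← Real.rpow_mul hs.le,
      mul_comm]
  have e2 : volume K ^ (1 - lam) * volume K ^ lam = volume K := by
    rw [← ENNReal.rpow_add_of_nonneg _ _ (by linarith) h0]
    simp
  rw [e1, mul_left_comm, e2]

/-- Equality case: pairs with two dilated direct summands, closed convex factors. -/
theorem logSum_prod_dilate_eq {lam : ℝ} (h0 : 0 ≤ lam) (h1 : lam ≤ 1)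
    {K₁ : Set (ι → ℝ)} {K₂ : Set (κ → ℝ)}
    (c₁ : Convex ℝ K₁) (c₂ : Convex ℝ K₂) (cl₁ : IsClosed K₁) (cl₂ : IsClosed K₂)
    (hK₁ : Bornology.IsBounded K₁) (hK₂ : Bornology.IsBounded K₂)
    (zK₁ : (0 : ι → ℝ) ∈ K₁) (zK₂ : (0 : κ → ℝ) ∈ K₂) {s t : ℝ} (hs : 0 < s) (ht : 0 < t) :
    logSum lam (prodSet K₁ K₂) (prodSet (s • K₁) (t • K₂)) =
        prodSet ((s ^ lam) • K₁) ((t ^ lam) • K₂) ∧
      volume (logSum lam (prodSet K₁ K₂) (prodSet (s • K₁) (t • K₂))) =
        volume (prodSet K₁ K₂) ^ (1 - lam) * volume (prodSet (s • K₁) (t • K₂)) ^ lam := by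
  have hset : logSum lam (prodSet K₁ K₂) (prodSet (s • K₁) (t • K₂)) =
      prodSet ((s ^ lam) • K₁) ((t ^ lam) • K₂) := by
    rw [logSum_prod h0 h1 hK₁ (hK₁.smul₀ s) hK₂ (hK₂.smul₀ t) zK₁ ⟨0, zK₁, by simp⟩ zK₂
      ⟨0, zK₂, by simp⟩, logSum_dilate_eq c₁ cl₁ hK₁ zK₁ hs, logSum_dilate_eq c₂ cl₂ hK₂ zK₂ ht]
  refine ⟨hset, ?_⟩
  rw [hset, volume_prodSet, volume_prodSet, volume_prodSet,
    ENNReal.mul_rpow_of_nonneg _ _ (by linarith : (0 : ℝ) ≤ 1 - lam),
    ENNReal.mul_rpow_of_nonneg _ _ h0, ← volume_pow_dilate h0 h1 K₁ hs,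
    ← volume_pow_dilate h0 h1 K₂ ht]
  ring

end

end Vale.Agent.Lib.P227
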