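import Mathlib
import Vale.Agent.Lib.P227.LogSum

/-!
P227 support file: the logarithmic combination commutes with invertible linear maps, and the
logarithmic Brunn-Minkowski inequality (and equality in it) is carried along.
-/

namespace Vale.Agent.Lib.P227

open MeasureTheory Matrix

section
variable {ι : Type*} [Fintype ι] [DecidableEq ι]

omit [DecidableEq ι] in
theorem mulVec_dot (A : Matrix ι ι ℝ) (x u : ι → ℝ) :
    (A *ᵥ x) ⬝ᵥ u = x ⬝ᵥ (Aᵀ *ᵥ u) := by
  rw [dotProduct_comm, dotProduct_mulVec, ← mulVec_transpose, dotProduct_comm]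

omit [DecidableEq ι] in
/-- The support function of a linear image. -/
theorem supp_image (A : Matrix ι ι ℝ) (K : Set (ι → ℝ)) (u : ι → ℝ) :
    supp ((fun x => A *ᵥ x) '' K) u = supp K (Aᵀ *ᵥ u) := by
  unfold supp
  rw [Set.image_image]
  congr 1
  apply Set.image_congr
  intro x _
  exact mulVec_dot A x u

omit [DecidableEq ι] in
theorem bounded_image (A : Matrix ι ι ℝ) {K : Set (ι → ℝ)} (hK : Bornology.IsBounded K) :
    Bornology.IsBounded ((fun x => A *ᵥ x) '' K) := by
  have hc : IsCompact (closure K) := hK.isCompact_closure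
  have hcont : Continuous (fun x : ι → ℝ => A *ᵥ x) :=
    Continuous.matrix_mulVec continuous_const continuous_id
  exact ((hc.image hcont).isBounded).subset (Set.image_mono subset_closure)

omit [DecidableEq ι] in
theorem zero_mem_image (A : Matrix ι ι ℝ) {K : Set (ι → ℝ)} (zK : (0 : ι → ℝ) ∈ K) :
    (0 : ι → ℝ) ∈ (fun x => A *ᵥ x) '' K := ⟨0, zK, by simp⟩

/-- The logarithmic combination commutes with invertible linear maps. -/
theorem logSum_image {lam : ℝ} (A B : Matrix ι ι ℝ) (hBA : B * A = 1)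
    {K L : Set (ι → ℝ)} (hK : Bornology.IsBounded K) (hL : Bornology.IsBounded L)
    (zK : (0 : ι → ℝ) ∈ K) (zL : (0 : ι → ℝ) ∈ L) :
    logSum lam ((fun x => A *ᵥ x) '' K) ((fun x => A *ᵥ x) '' L) =
      (fun x => A *ᵥ x) '' logSum lam K L := by
  have hAB : A * B = 1 := mul_eq_one_comm.mp hBA
  ext x
  constructor
  · intro hx
    refine ⟨B *ᵥ x, ?_, ?_⟩
    · intro v _
      have := logSum_all (bounded_image A hK) (bounded_image A hL) (zero_mem_image A zK)
        (zero_mem_image A zL) hx (Bᵀ *ᵥ v)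
      rw [supp_image, supp_image, mulVec_mulVec, ← transpose_mul, hBA, transpose_one,
        one_mulVec, ← mulVec_dot] at this
      exact this
    · show A *ᵥ (B *ᵥ x) = x
      rw [mulVec_mulVec, hAB, one_mulVec]
  · rintro ⟨y, hy, rfl⟩ u _
    rw [supp_image, supp_image, mulVec_dot]
    exact logSum_all hK hL zK zL hy (Aᵀ *ᵥ u)

omit [DecidableEq ι] in
/-- Lebesgue measure of a linear image. -/
theorem volume_image (A : Matrix ι ι ℝ) (S : Set (ι → ℝ)) :
    volume ((fun x => A *ᵥ x) '' S) =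
      ENNReal.ofReal |LinearMap.det (Matrix.mulVecLin A)| * volume S := by
  rw [← Measure.addHaar_image_linearMap]
  rfl

/-- The logarithmic Brunn-Minkowski inequality is carried along by invertible linear maps. -/
theorem logBM_image {lam : ℝ} (h0 : 0 ≤ lam) (h1 : lam ≤ 1) (A B : Matrix ι ι ℝ)
    (hBA : B * A = 1) {K L : Set (ι → ℝ)} (hK : Bornology.IsBounded K)
    (hL : Bornology.IsBounded L) (zK : (0 : ι → ℝ) ∈ K) (zL : (0 : ι → ℝ) ∈ L) :
    (volume K ^ (1 - lam) * volume L ^ lam ≤ volume (logSum lam K L) →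
      volume ((fun x => A *ᵥ x) '' K) ^ (1 - lam) * volume ((fun x => A *ᵥ x) '' L) ^ lam ≤
        volume (logSum lam ((fun x => A *ᵥ x) '' K) ((fun x => A *ᵥ x) '' L))) ∧
    (volume (logSum lam K L) = volume K ^ (1 - lam) * volume L ^ lam →
      volume (logSum lam ((fun x => A *ᵥ x) '' K) ((fun x => A *ᵥ x) '' L)) =
        volume ((fun x => A *ᵥ x) '' K) ^ (1 - lam) *
          volume ((fun x => A *ᵥ x) '' L) ^ lam) := by
  rw [logSum_image A B hBA hK hL zK zL, volume_image, volume_image, volume_image]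
  generalize ENNReal.ofReal |LinearMap.det (Matrix.mulVecLin A)| = c
  have hc : c ^ (1 - lam) * c ^ lam = c := by
    rw [← ENNReal.rpow_add_of_nonneg _ _ (by linarith) h0]
    simp
  have key : (c * volume K) ^ (1 - lam) * (c * volume L) ^ lam =
      c * (volume K ^ (1 - lam) * volume L ^ lam) := by
    rw [ENNReal.mul_rpow_of_nonneg _ _ (by linarith : (0 : ℝ) ≤ 1 - lam),
      ENNReal.mul_rpow_of_nonneg _ _ h0]
    calc c ^ (1 - lam) * volume K ^ (1 - lam) * (c ^ lam * volume L ^ lam)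
        = c ^ (1 - lam) * c ^ lam * (volume K ^ (1 - lam) * volume L ^ lam) := by ring
      _ = c * (volume K ^ (1 - lam) * volume L ^ lam) := by rw [hc]
  rw [key]
  exact ⟨fun h => mul_le_mul_right h c, fun h => by rw [h]⟩

end

section
variable {ι κ : Type*}

theorem bounded_prodSet {K₁ : Set (ι → ℝ)} {K₂ : Set (κ → ℝ)} (h₁ : Bornology.IsBounded K₁)
    (h₂ : Bornology.IsBounded K₂) : Bornology.IsBounded (prodSet K₁ K₂) := by
  rw [← Bornology.forall_isBounded_image_eval_iff]
  rintro (a | b)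
  · refine (h₁.image_eval a).subset ?_
    rintro _ ⟨x, hx, rfl⟩
    exact ⟨fun i => x (Sum.inl i), hx.1, rfl⟩
  · refine (h₂.image_eval b).subset ?_
    rintro _ ⟨x, hx, rfl⟩
    exact ⟨fun j => x (Sum.inr j), hx.2, rfl⟩

theorem zero_mem_prodSet {K₁ : Set (ι → ℝ)} {K₂ : Set (κ → ℝ)} (z₁ : (0 : ι → ℝ) ∈ K₁)
    (z₂ : (0 : κ → ℝ) ∈ K₂) : (0 : ι ⊕ κ → ℝ) ∈ prodSet K₁ K₂ := ⟨z₁, z₂⟩

end

end Vale.Agent.Lib.P227
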